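import Crest.Agent.R163.Q3.D.P8L.S0
import Crest.Agent.R163.Q3.D.P8L.H

set_option autoImplicit false
set_option maxRecDepth 100000
set_option linter.all false
set_option Elab.async false

namespace Crest.Agent.R163.P8L

theorem p0_25_14 : Ok2 par f25 Box3.unit (selB2 1 C0 89153535) :=
  Ok2.run hw hf25 ⟨304,19,19,13,13⟩ 59
    (.chk false 0)
    (by decide +kernel)


end Crest.Agent.R163.P8L
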